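import Mathlib

/-!
Area inequality for Lipschitz maps whose derivative has Hilbert-Schmidt norm at most `√n`, and its equality case.
-/

open MeasureTheory Module Set
open scoped InnerProductSpace

namespace Vale.Agent.P084

variable {n : ℕ}

theorem det_hs (A : EuclideanSpace ℝ (Fin n) →L[ℝ] EuclideanSpace ℝ (Fin n))
    (h : ∑ i, ‖A (EuclideanSpace.single i 1)‖ ^ 2 ≤ n) : |A.det| ≤ 1 ∧ (1 ≤ |A.det| → ‖A‖ ≤ 1) := by
  let L : EuclideanSpace ℝ (Fin n) →ₗ[ℝ] EuclideanSpace ℝ (Fin n) := A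
  have hT : (LinearMap.adjoint L ∘ₗ L).IsSymmetric := fun x y => by
    simp only [LinearMap.comp_apply, LinearMap.adjoint_inner_left, LinearMap.adjoint_inner_right]
  have hn : finrank ℝ (EuclideanSpace ℝ (Fin n)) = n := by simp
  have q : ∀ x, ⟪x, (LinearMap.adjoint L ∘ₗ L) x⟫_ℝ = ‖A x‖ ^ 2 := fun x => by
    rw [LinearMap.comp_apply, LinearMap.adjoint_inner_right, real_inner_self_eq_norm_sq]
    rfl
  have e1 : ∀ i, hT.eigenvalues hn i = ‖A (hT.eigenvectorBasis hn i)‖ ^ 2 := fun i => by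
    rw [← q, hT.apply_eigenvectorBasis, inner_smul_right, real_inner_self_eq_norm_sq,
      (hT.eigenvectorBasis hn).orthonormal.1 i]
    simp
  have e0 : ∀ i, 0 ≤ hT.eigenvalues hn i := fun i => by rw [e1]; positivity
  have e2 : ∑ i, hT.eigenvalues hn i ≤ n := by
    have a1 := LinearMap.trace_eq_sum_inner (LinearMap.adjoint L ∘ₗ L) (hT.eigenvectorBasis hn)
    have a2 := LinearMap.trace_eq_sum_inner (LinearMap.adjoint L ∘ₗ L) (EuclideanSpace.basisFun (Fin n) ℝ)
    simp only [q, EuclideanSpace.basisFun_apply] at a1 a2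
    simp only [e1]
    linarith
  have e3 : ∏ i, hT.eigenvalues hn i = |A.det| ^ 2 := by
    have := hT.det_eq_prod_eigenvalues hn
    have ad : LinearMap.det (LinearMap.adjoint L) = LinearMap.det L := by
      rw [← LinearMap.det_toMatrix (EuclideanSpace.basisFun (Fin n) ℝ).toBasis,
        ← LinearMap.det_toMatrix (EuclideanSpace.basisFun (Fin n) ℝ).toBasis L, LinearMap.toMatrix_adjoint,
        Matrix.det_conjTranspose, star_trivial]
    rw [LinearMap.det_comp, ad] at this
    rw [sq_abs, sq]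
    simpa using this.symm
  have e4 : ∏ i, Real.exp (hT.eigenvalues hn i - 1) ≤ 1 := by
    rw [← Real.exp_sum, Real.exp_le_one_iff, Finset.sum_sub_distrib]
    simpa using e2
  have e5 : ∀ i, hT.eigenvalues hn i ≤ Real.exp (hT.eigenvalues hn i - 1) := fun i => by
    linarith [Real.add_one_le_exp (hT.eigenvalues hn i - 1)]
  refine ⟨(pow_le_one_iff_of_nonneg (abs_nonneg _) two_ne_zero).1
    (e3 ▸ (Finset.prod_le_prod (fun i _ => e0 i) fun i _ => e5 i).trans e4), fun h1 => ?_⟩
  have p1 : 1 ≤ ∏ i, hT.eigenvalues hn i := e3 ▸ one_le_pow₀ h1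
  have p0 : ∀ i, 0 < hT.eigenvalues hn i := fun i => (e0 i).lt_of_ne fun h0 => by
    rw [Finset.prod_eq_zero (Finset.mem_univ i) h0.symm] at p1
    linarith
  have p2 : ∀ i, hT.eigenvalues hn i = 1 := fun i => by
    by_contra h0
    have := Finset.prod_lt_prod (s := Finset.univ) (fun i _ => p0 i) (fun i _ => e5 i)
      ⟨i, Finset.mem_univ i, by linarith [Real.add_one_lt_exp (sub_ne_zero.2 h0)]⟩
    linarith
  have p3 : LinearMap.adjoint L ∘ₗ L = LinearMap.id := (hT.eigenvectorBasis hn).toBasis.ext fun i => by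
    rw [OrthonormalBasis.coe_toBasis, hT.apply_eigenvectorBasis, p2]
    simp
  refine A.opNorm_le_bound zero_le_one fun x => ?_
  have := q x
  rw [p3, LinearMap.id_apply, real_inner_self_eq_norm_sq] at this
  rw [one_mul]
  exact ((sq_eq_sq₀ (norm_nonneg _) (norm_nonneg _)).1 this).ge

theorem null_image {G : EuclideanSpace ℝ (Fin n) → EuclideanSpace ℝ (Fin n)} {K : NNReal}
    (hG : LipschitzWith K G) {s : Set (EuclideanSpace ℝ (Fin n))} (hs : volume s = 0) :
    volume (G '' s) = 0 := by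
  have a1 := Measure.absolutelyContinuous_isAddHaarMeasure
    (Measure.hausdorffMeasure (finrank ℝ (EuclideanSpace ℝ (Fin n)))) (volume : Measure (EuclideanSpace ℝ (Fin n)))
  have a2 := Measure.absolutelyContinuous_isAddHaarMeasure (volume : Measure (EuclideanSpace ℝ (Fin n)))
    (Measure.hausdorffMeasure (finrank ℝ (EuclideanSpace ℝ (Fin n))))
  refine a2 (nonpos_iff_eq_zero.1 ((hG.hausdorffMeasure_image_le (by positivity) s).trans ?_))
  rw [a1 hs, mul_zero]

theorem area_int {G : EuclideanSpace ℝ (Fin n) → EuclideanSpace ℝ (Fin n)} {K : NNReal}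
    (hG : LipschitzWith K G) {s : Set (EuclideanSpace ℝ (Fin n))} (hs : MeasurableSet s) :
    volume (G '' s) ≤ ∫⁻ x in s, ENNReal.ofReal |(fderiv ℝ G x).det| := by
  have m := measurableSet_of_differentiableAt ℝ G
  have z : volume (s \ {x | DifferentiableAt ℝ G x}) = 0 :=
    measure_mono_null (fun x hx => hx.2) (hG.ae_differentiableAt (μ := volume))
  calc volume (G '' s) ≤ volume (G '' (s ∩ {x | DifferentiableAt ℝ G x})) +
        volume (G '' (s \ {x | DifferentiableAt ℝ G x})) := by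
        refine le_trans (measure_mono ?_) (measure_union_le _ _)
        rw [← image_union, inter_union_diff]
    _ ≤ ∫⁻ x in s ∩ {x | DifferentiableAt ℝ G x}, ENNReal.ofReal |(fderiv ℝ G x).det| := by
        rw [null_image hG z, add_zero]
        exact addHaar_image_le_lintegral_abs_det_fderiv volume (hs.inter m)
          fun x hx => hx.2.hasFDerivAt.hasFDerivWithinAt
    _ ≤ _ := lintegral_mono_set inter_subset_left

theorem det_ae {G : EuclideanSpace ℝ (Fin n) → EuclideanSpace ℝ (Fin n)} {K : NNReal}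
    (hG : LipschitzWith K G) (hd : ∀ᵐ x, DifferentiableAt ℝ G x →
      ∑ i, ‖fderiv ℝ G x (EuclideanSpace.single i 1)‖ ^ 2 ≤ n) :
    ∀ᵐ x, |(fderiv ℝ G x).det| ≤ 1 ∧ (1 ≤ |(fderiv ℝ G x).det| → ‖fderiv ℝ G x‖ ≤ 1) := by
  filter_upwards [hd, hG.ae_differentiableAt (μ := volume)] with x h1 h2 using det_hs _ (h1 h2)

theorem area_le {G : EuclideanSpace ℝ (Fin n) → EuclideanSpace ℝ (Fin n)} {K : NNReal}
    (hG : LipschitzWith K G) {s : Set (EuclideanSpace ℝ (Fin n))} (hs : MeasurableSet s)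
    (hd : ∀ᵐ x, DifferentiableAt ℝ G x → ∑ i, ‖fderiv ℝ G x (EuclideanSpace.single i 1)‖ ^ 2 ≤ n) :
    volume (G '' s) ≤ volume s := by
  refine (area_int hG hs).trans ?_
  rw [← setLIntegral_one]
  refine lintegral_mono_ae (ae_restrict_of_ae ?_)
  filter_upwards [det_ae hG hd] with x hx using ENNReal.ofReal_le_one.2 hx.1

theorem area_eq {G : EuclideanSpace ℝ (Fin n) → EuclideanSpace ℝ (Fin n)} {K : NNReal}
    (hG : LipschitzWith K G) {s : Set (EuclideanSpace ℝ (Fin n))} (hs : MeasurableSet s)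
    (hd : ∀ᵐ x, DifferentiableAt ℝ G x → ∑ i, ‖fderiv ℝ G x (EuclideanSpace.single i 1)‖ ^ 2 ≤ n)
    (hf : volume s ≠ ⊤) (h : volume s ≤ volume (G '' s)) : ∀ᵐ x, x ∈ s → ‖fderiv ℝ G x‖ ≤ 1 := by
  have a1 : (fun x => ENNReal.ofReal |(fderiv ℝ G x).det|) ≤ᵐ[volume.restrict s] fun _ => 1 := by
    refine ae_restrict_of_ae ?_
    filter_upwards [det_ae hG hd] with x hx using ENNReal.ofReal_le_one.2 hx.1
  have a2 := ae_eq_of_ae_le_of_lintegral_le a1
    (ne_top_of_le_ne_top hf ((lintegral_mono_ae a1).trans_eq (setLIntegral_one s))) aemeasurable_const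
    ((setLIntegral_one s).trans_le (h.trans (area_int hG hs)))
  filter_upwards [(ae_restrict_iff' hs).1 a2, det_ae hG hd] with x h1 h2 hx
  exact h2.2 (ENNReal.ofReal_eq_one.1 (h1 hx)).ge

end Vale.Agent.P084
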