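import Mathlib

namespace Vale.Agent.P084.H1

open Metric

theorem fixc {Z : Type*} [NormedAddCommGroup Z] [NormedSpace ℝ Z] {K : Set Z} {m : Z} {c : ℝ}
    (hm : m ∈ K) (hK : ∀ z ∈ K, m + m - z ∈ K) (hb : ∀ z ∈ K, ‖z - m‖ ≤ c) (n : ℕ) :
    ∀ g g' : Z → Z, (∀ z ∈ K, g z ∈ K ∧ g' z ∈ K ∧ g (g' z) = z ∧ g' (g z) = z) →
      (∀ z ∈ K, ∀ z' ∈ K, ‖g z - g z'‖ = ‖z - z'‖) → 2 ^ n * ‖g m - m‖ ≤ c := by
  induction n with
  | zero => exact fun g g' h _ => by simpa using hb _ (h m hm).1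
  | succ n ih =>
    intro g g' h hi
    have i' : ∀ z ∈ K, ∀ z' ∈ K, ‖g' z - g' z'‖ = ‖z - z'‖ := fun z hz z' hz' => by
      rw [← hi _ (h z hz).2.1 _ (h z' hz').2.1, (h z hz).2.2.1, (h z' hz').2.2.1]
    have r : ∀ a b : Z, ‖m + m - a - (m + m - b)‖ = ‖a - b‖ := fun a b => by
      rw [norm_sub_rev]; congr 1; abel
    have k := ih (fun z => m + m - g' (m + m - g z)) (fun z => g' (m + m - g (m + m - z)))
      (fun z hz => by
        have a1 := hK _ (h z hz).1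
        have a2 := hK _ (h _ (hK z hz)).1
        refine ⟨hK _ (h _ a1).2.1, (h _ a2).2.1, ?_, ?_⟩
        · simp only [(h _ a2).2.2.1, sub_sub_cancel, (h _ (hK z hz)).2.2.2]
        · simp only [sub_sub_cancel, (h _ a1).2.2.1, (h z hz).2.2.2])
      fun z hz z' hz' => by
        rw [r, i' _ (hK _ (h z hz).1) _ (hK _ (h z' hz').1), r, hi z hz z' hz']
    have a1 := hK _ (h m hm).1
    have e : ‖m + m - g' (m + m - g m) - m‖ = 2 * ‖g m - m‖ := by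
      rw [show m + m - g' (m + m - g m) - m = m - g' (m + m - g m) by abel,
        ← hi _ hm _ (h _ a1).2.1, (h _ a1).2.2.1,
        show g m - (m + m - g m) = (2 : ℝ) • (g m - m) by rw [two_smul]; abel, norm_smul]
      norm_num
    simp only [e] at k
    rw [pow_succ]
    linarith

variable {Z W : Type*} [NormedAddCommGroup Z] [NormedSpace ℝ Z] [NormedAddCommGroup W] [NormedSpace ℝ W]

theorem halve (h : Z → W) (h' : W → Z) (h0 : h 0 = 0)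
    (hi : ∀ a b, ‖a‖ < 1 → ‖b‖ < 1 → ‖h a - h b‖ = ‖a - b‖)
    (h1 : ∀ w, ‖w‖ < 1 → ‖h' w‖ < 1 ∧ h (h' w) = w) (z : Z) (hz : ‖z‖ < 1) :
    h ((1 / 2 : ℝ) • z) = (1 / 2 : ℝ) • h z := by
  have n0 : ∀ a, ‖a‖ < 1 → ‖h a‖ = ‖a‖ := fun a ha => by simpa [h0] using hi a 0 ha (by simp)
  have inj : ∀ a b, ‖a‖ < 1 → ‖b‖ < 1 → h a = h b → a = b := fun a b ha hb e => by
    have := hi a b ha hb
    rw [e, sub_self, norm_zero] at this
    exact sub_eq_zero.1 (norm_eq_zero.1 this.symm)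
  set m := (1 / 2 : ℝ) • z with hm
  have mm : m + m = z := by rw [hm, ← add_smul]; norm_num
  have mn : ‖m‖ = ‖z‖ / 2 := by rw [hm, norm_smul]; simp; ring
  have z0 := norm_nonneg z
  let K : Set Z := {a | ‖a‖ ≤ ‖z‖ / 2 ∧ ‖z - a‖ ≤ ‖z‖ / 2}
  have mK : m ∈ K := ⟨mn.le, by rw [show z - m = m by rw [← mm]; abel]; exact mn.le⟩
  have gK : ∀ a ∈ K, ‖h z - h a‖ < 1 ∧ h' (h z - h a) ∈ K := fun a ha => by
    have a1 : ‖h z - h a‖ = ‖z - a‖ := hi z a hz (by linarith [ha.1])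
    have a2 : ‖h z - h a‖ < 1 := by linarith [ha.2]
    obtain ⟨b1, b2⟩ := h1 _ a2
    refine ⟨a2, ?_, ?_⟩
    · rw [← n0 _ b1, b2, a1]; exact ha.2
    · rw [← hi z _ hz b1, b2, sub_sub_cancel, n0 a (by linarith [ha.1])]; exact ha.1
  have gg : ∀ a ∈ K, h' (h z - h (h' (h z - h a))) = a := fun a ha => by
    have a1 : ‖a‖ < 1 := by linarith [ha.1]
    rw [(h1 _ (gK a ha).1).2, sub_sub_cancel]
    have := h1 (h a) (by rwa [n0 a a1])
    exact inj _ _ this.1 a1 this.2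
  have k := fun n => fixc (c := 2) mK (fun a ha => by
      rw [mm]; exact ⟨ha.2, by rw [sub_sub_cancel]; exact ha.1⟩)
    (fun a ha => (norm_sub_le _ _).trans (by linarith [ha.1])) n (fun a => h' (h z - h a))
    (fun a => h' (h z - h a)) (fun a ha => ⟨(gK a ha).2, (gK a ha).2, gg a ha, gg a ha⟩)
    fun a ha b hb => by
      rw [← hi _ _ (h1 _ (gK a ha).1).1 (h1 _ (gK b hb).1).1, (h1 _ (gK a ha).1).2,
        (h1 _ (gK b hb).1).2, sub_sub_sub_cancel_left, norm_sub_rev,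
        hi a b (by linarith [ha.1]) (by linarith [hb.1])]
  have e : h' (h z - h m) = m := by
    by_contra ne
    have p : 0 < ‖h' (h z - h m) - m‖ := norm_pos_iff.2 (sub_ne_zero.2 ne)
    obtain ⟨n, hn⟩ := pow_unbounded_of_one_lt (2 / ‖h' (h z - h m) - m‖) (one_lt_two (α := ℝ))
    rw [div_lt_iff₀ p] at hn
    exact absurd (k n) (not_le.2 hn)
  have e2 := (h1 _ (gK m mK).1).2
  rw [e] at e2
  have : h z = (2 : ℝ) • h m := by rw [two_smul]; exact (eq_sub_iff_add_eq.1 e2).symm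
  rw [this, smul_smul]
  norm_num

theorem ball_ext (h : Z → W) (h0 : h 0 = 0)
    (hi : ∀ a b, ‖a‖ < 1 → ‖b‖ < 1 → ‖h a - h b‖ = ‖a - b‖)
    (hs : ∀ w, ‖w‖ < 1 → ∃ z, ‖z‖ < 1 ∧ h z = w) :
    ∃ T : Z ≃ₗᵢ[ℝ] W, ∀ z, ‖z‖ < 1 → T z = h z := by
  choose! h' h1 h2 using hs
  have hv := halve h h' h0 hi fun w hw => ⟨h1 w hw, h2 w hw⟩
  have sm : ∀ {V : Type _} [NormedAddCommGroup V] [NormedSpace ℝ V] (v : V) (n : ℕ),
      ‖(1 / 2 : ℝ) ^ n • v‖ = (1 / 2) ^ n * ‖v‖ := fun v n => by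
    rw [norm_smul, Real.norm_of_nonneg (by positivity)]
  have sw : ∀ (v : W) (n : ℕ), ‖(1 / 2 : ℝ) ^ n • v‖ = (1 / 2) ^ n * ‖v‖ := fun v n => by
    rw [norm_smul, Real.norm_of_nonneg (by positivity)]
  have pw : ∀ (k : ℕ) z, ‖z‖ < 1 → h ((1 / 2 : ℝ) ^ k • z) = (1 / 2 : ℝ) ^ k • h z := fun k z hz => by
    induction k with
    | zero => simp
    | succ k ih =>
      rw [pow_succ', mul_smul, mul_smul, hv _ ?_, ih]
      rw [sm]
      exact (mul_le_of_le_one_left (norm_nonneg _) (pow_le_one₀ (by norm_num) (by norm_num))).trans_lt hz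
  have ex : ∀ c : ℝ, 0 ≤ c → ∃ n : ℕ, (1 / 2 : ℝ) ^ n * c < 1 := fun c hc => by
    obtain ⟨n, hn⟩ := exists_pow_lt_of_lt_one (show 0 < 1 / (c + 1) by positivity)
      (show (1 / 2 : ℝ) < 1 by norm_num)
    rw [lt_div_iff₀ (by positivity)] at hn
    exact ⟨n, by nlinarith [pow_pos (show (0 : ℝ) < 1 / 2 by norm_num) n]⟩
  choose N hN using fun z : Z => ex ‖z‖ (norm_nonneg _)
  have tw : ∀ n : ℕ, (2 : ℝ) ^ n * (1 / 2) ^ n = 1 := fun n => by rw [← mul_pow]; norm_num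
  have up : ∀ (z : Z) (n k : ℕ), (1 / 2 : ℝ) ^ n * ‖z‖ < 1 →
      (2 : ℝ) ^ (k + n) • h ((1 / 2 : ℝ) ^ (k + n) • z) = (2 : ℝ) ^ n • h ((1 / 2 : ℝ) ^ n • z) :=
    fun z n k hz => by
      rw [pow_add (1 / 2 : ℝ), mul_smul, pw k _ (by rwa [sm]), smul_smul, pow_add, mul_right_comm, tw,
        one_mul]
  let F : Z → W := fun z => (2 : ℝ) ^ N z • h ((1 / 2 : ℝ) ^ N z • z)
  have hF : ∀ (z : Z) (n : ℕ), (1 / 2 : ℝ) ^ n * ‖z‖ < 1 →
      F z = (2 : ℝ) ^ n • h ((1 / 2 : ℝ) ^ n • z) := fun z n hz => by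
    rw [← up z n (N z) hz, add_comm, up z (N z) n (hN z)]
  have iso : Isometry F := Isometry.of_dist_eq fun a b => by
    obtain ⟨n, hn⟩ := ex (‖a‖ + ‖b‖) (by positivity)
    have p : (0 : ℝ) < (1 / 2) ^ n := by positivity
    have ha : (1 / 2 : ℝ) ^ n * ‖a‖ < 1 := by nlinarith [norm_nonneg b]
    have hb : (1 / 2 : ℝ) ^ n * ‖b‖ < 1 := by nlinarith [norm_nonneg a]
    rw [dist_eq_norm, dist_eq_norm, hF a n ha, hF b n hb, ← smul_sub, norm_smul,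
      hi _ _ (by rwa [sm]) (by rwa [sm]), ← smul_sub, sm, Real.norm_of_nonneg (by positivity),
      ← mul_assoc, tw, one_mul]
  have sur : Function.Surjective F := fun w => by
    obtain ⟨n, hn⟩ := ex ‖w‖ (norm_nonneg _)
    have a := h1 _ (show ‖(1 / 2 : ℝ) ^ n • w‖ < 1 by rwa [sw])
    have b := h2 _ (show ‖(1 / 2 : ℝ) ^ n • w‖ < 1 by rwa [sw])
    have e : (1 / 2 : ℝ) ^ n • (2 : ℝ) ^ n • h' ((1 / 2 : ℝ) ^ n • w) = h' ((1 / 2 : ℝ) ^ n • w) := by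
      rw [smul_smul, mul_comm, tw, one_smul]
    refine ⟨(2 : ℝ) ^ n • h' ((1 / 2 : ℝ) ^ n • w), ?_⟩
    rw [hF _ n (by rwa [← sm, e]), e, b, smul_smul, tw, one_smul]
  have F1 : ∀ z, ‖z‖ < 1 → F z = h z := fun z hz => by simpa using hF z 0 (by simpa using hz)
  let E : Z ≃ᵢ W := ⟨Equiv.ofBijective F ⟨iso.injective, sur⟩, iso⟩
  exact ⟨E.toRealLinearIsometryEquivOfMapZero ((F1 0 (by simp)).trans h0), F1⟩

end Vale.Agent.P084.H1
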