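import Vale.Agent.P084.H1Ball

namespace Vale.Agent.P084.H1

open Metric

variable {Z Y : Type*} [NormedAddCommGroup Z] [NormedSpace ℝ Z] [NormedAddCommGroup Y] [NormedSpace ℝ Y]

theorem chord0 {z v : Z} (hz : ‖z‖ ≤ 1) (hv : ‖v‖ ≤ 1) (ne : z ≠ v)
    (h : ∀ u, ‖u‖ ≤ 1 → ‖v - u‖ ≤ 1 → ‖z - u‖ ≤ 1) : ‖z + ‖z - v‖⁻¹ • (z - v)‖ ≤ 1 := by
  have d0 : 0 < ‖z - v‖ := norm_pos_iff.2 (sub_ne_zero.2 ne)
  have k : ∀ n : ℕ, ∀ t : ℝ, 0 ≤ t → t ≤ ‖z - v‖⁻¹ → t ≤ n → ‖z + t • (z - v)‖ ≤ 1 := fun n => by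
    induction n with
    | zero => intro t a _ c; rw [le_antisymm (by simpa using c) a]; simpa using hz
    | succ n ih =>
      intro t a b c
      have := h (-(t • (z - v))) (by
        rw [norm_neg, norm_smul, Real.norm_of_nonneg a]
        exact (mul_le_mul_of_nonneg_right b d0.le).trans (inv_mul_cancel₀ d0.ne').le) (by
        rcases le_total t 1 with t1 | t1
        · rw [show v - -(t • (z - v)) = t • z + (1 - t) • v by module]
          refine (norm_add_le _ _).trans ?_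
          rw [norm_smul, norm_smul, Real.norm_of_nonneg a, Real.norm_of_nonneg (sub_nonneg.2 t1)]
          nlinarith
        · rw [show v - -(t • (z - v)) = z + (t - 1) • (z - v) by module]
          exact ih _ (by linarith) (by linarith) (by push_cast at c; linarith))
      rwa [sub_neg_eq_add] at this
  obtain ⟨n, hn⟩ := exists_nat_ge ‖z - v‖⁻¹
  exact k n _ (by positivity) le_rfl hn

theorem chord {z v : Z} (hz : ‖z‖ ≤ 1) (hv : ‖v‖ ≤ 1)
    (h : ∀ u, ‖u‖ ≤ 1 → (‖v - u‖ ≤ 1 ↔ ‖z - u‖ ≤ 1)) : v = z := by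
  by_contra ne
  have d0 : 0 < ‖z - v‖ := norm_pos_iff.2 (sub_ne_zero.2 (Ne.symm ne))
  have a := chord0 hz hv (Ne.symm ne) fun u hu => (h u hu).1
  have b := chord0 hv hz ne fun u hu => (h u hu).2
  rw [norm_sub_rev v z] at b
  have c := norm_sub_le (z + ‖z - v‖⁻¹ • (z - v)) (v + ‖z - v‖⁻¹ • (v - z))
  rw [show z + ‖z - v‖⁻¹ • (z - v) - (v + ‖z - v‖⁻¹ • (v - z)) = (1 + 2 * ‖z - v‖⁻¹) • (z - v) by module,
    norm_smul, Real.norm_of_nonneg (by positivity), add_mul, mul_assoc, inv_mul_cancel₀ d0.ne'] at c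
  linarith

theorem sum_ext (F : Z × ℝ → Y) (F1 : ∀ x, ‖x‖ = 1 → ‖F x‖ = 1)
    (Fi : ∀ x x', ‖x‖ = 1 → ‖x'‖ = 1 → ‖F x - F x'‖ = ‖x - x'‖)
    (Fs : ∀ y, ‖y‖ = 1 → ∃ x, ‖x‖ = 1 ∧ F x = y) (Fo : ∀ x, ‖x‖ = 1 → F (-x) = -F x) :
    ∃ T : (Z × ℝ) ≃ₗᵢ[ℝ] Y, ∀ x, ‖x‖ = 1 → T x = F x := by
  have nm : ∀ (z : Z) (t : ℝ), ‖(z, t)‖ = max ‖z‖ |t| := fun z t => rfl
  have n1 : ∀ z : Z, ‖z‖ ≤ 1 → ‖(z, (1 : ℝ))‖ = 1 := fun z hz => by
    rw [nm, abs_one, max_eq_right hz]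
  have Fa : ∀ x x', ‖x‖ = 1 → ‖x'‖ = 1 → ‖F x + F x'‖ = ‖x + x'‖ := fun x x' a b => by
    rw [← sub_neg_eq_add, ← Fo x' b, Fi x _ a (by rwa [norm_neg]), sub_neg_eq_add]
  have n0 := n1 0 (by simp)
  obtain ⟨e, he⟩ : ∃ e, e = F (0, 1) := ⟨_, rfl⟩
  have e1 : ‖e‖ = 1 := he ▸ F1 _ n0
  obtain ⟨ψ, p1, p2⟩ := exists_dual_vector ℝ e (by rw [e1]; norm_num)
  have pe : ψ e = 1 := by rw [p2, e1]; rfl
  have pl : ∀ y, |ψ y| ≤ ‖y‖ := fun y => by simpa [p1] using ψ.le_opNorm y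
  have near : ∀ y, ‖y‖ = 1 → ‖y - e‖ < 1 → ∃ z, ‖z‖ < 1 ∧ F (z, 1) = y := fun y a b => by
    obtain ⟨⟨z, t⟩, c, rfl⟩ := Fs y a
    rw [he, Fi _ _ c n0, Prod.mk_sub_mk, sub_zero, nm, max_lt_iff] at b
    rw [nm] at c
    have : |t| = 1 := by rcases max_choice ‖z‖ |t| with k | k <;> linarith [b.1]
    have t1 : t = 1 := by
      rcases abs_cases t with k | k <;> linarith [(abs_lt.1 b.2).1]
    exact ⟨z, b.1, by rw [t1]⟩
  have nrm : ∀ u, ‖u‖ < 1 → 1 ≤ ‖e + u‖ → ∃ z, ‖z‖ < 1 ∧ ‖e + u‖ • F (z, 1) = e + u := fun u a b => by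
    have c : 0 < ‖e + u‖ := by linarith
    have i0 : 0 < ‖e + u‖⁻¹ := by positivity
    have i1 : ‖e + u‖⁻¹ ≤ 1 := inv_le_one_of_one_le₀ b
    obtain ⟨z, z1, z2⟩ := near (‖e + u‖⁻¹ • (e + u)) (by
      rw [norm_smul, norm_inv, norm_norm, inv_mul_cancel₀ c.ne']) (by
      rw [show ‖e + u‖⁻¹ • (e + u) - e = ‖e + u‖⁻¹ • u - (1 - ‖e + u‖⁻¹) • e by module]
      refine (norm_sub_le _ _).trans_lt ?_
      rw [norm_smul, norm_smul, Real.norm_of_nonneg i0.le, Real.norm_of_nonneg (sub_nonneg.2 i1), e1]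
      nlinarith)
    exact ⟨z, z1, by rw [z2, smul_smul, mul_inv_cancel₀ c.ne', one_smul]⟩
  have top : ∀ z, ‖z‖ < 1 → ψ (F (z, 1)) = 1 := fun z hz => by
    have y1 := F1 _ (n1 z hz.le)
    have a : ‖e - F (z, 1)‖ < 1 := by
      rw [he, Fi _ _ n0 (n1 z hz.le), Prod.mk_sub_mk, nm]
      simpa using hz
    have b : 1 ≤ ‖e + (e - F (z, 1))‖ := by
      have := norm_add_le (e + (e - F (z, 1))) (F (z, 1))
      rw [show e + (e - F (z, 1)) + F (z, 1) = (2 : ℝ) • e by module, norm_smul, e1, y1] at this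
      norm_num at this
      linarith
    obtain ⟨z', z1, z2⟩ := nrm _ a b
    have c : ‖F (z', 1) + F (z, 1)‖ = 2 := by
      rw [Fa _ _ (n1 z' z1.le) (n1 z hz.le), Prod.mk_add_mk, nm, max_eq_right]
      · norm_num
      · refine (norm_add_le _ _).trans ?_
        norm_num
        linarith
    set n := ‖e + (e - F (z, 1))‖ with hn
    have d := norm_add_le ((2 : ℝ) • e) ((n - 1) • F (z, 1))
    rw [show (2 : ℝ) • e + (n - 1) • F (z, 1) = n • (F (z', 1) + F (z, 1)) by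
      rw [smul_add, z2]; module, norm_smul, norm_smul, norm_smul, c, e1, y1,
      Real.norm_of_nonneg (by linarith : 0 ≤ n), Real.norm_of_nonneg (by linarith : 0 ≤ n - 1)] at d
    norm_num at d
    have q1 := (abs_le.1 (pl (e + (e - F (z, 1))))).2
    have q2 := (abs_le.1 (pl (F (z, 1)))).2
    rw [map_add, map_sub, pe] at q1
    linarith
  let pr : Y → (LinearMap.ker (ψ : Y →ₗ[ℝ] ℝ)) := fun y => ⟨y - ψ y • e, by simp [pe]⟩
  obtain ⟨T, hT⟩ := ball_ext (fun z : Z => pr (F (z, 1)))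
    (Subtype.ext (by simp [pr, ← he, pe]))
    (fun a b ha hb => by
      change ‖F (a, 1) - ψ (F (a, 1)) • e - (F (b, 1) - ψ (F (b, 1)) • e)‖ = _
      rw [top a ha, top b hb, sub_sub_sub_cancel_right, Fi _ _ (n1 a ha.le) (n1 b hb.le),
        Prod.mk_sub_mk, nm]
      simp)
    fun w hw => by
      have w0 : ψ w = 0 := w.2
      have b : 1 ≤ ‖e + w‖ := by simpa [pe, w0] using pl (e + w)
      obtain ⟨z, z1, z2⟩ := nrm w hw b
      have c := congrArg ψ z2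
      rw [map_smul, top z z1, map_add, pe, w0, smul_eq_mul, mul_one, add_zero] at c
      rw [c, one_smul] at z2
      refine ⟨z, z1, Subtype.ext ?_⟩
      change F (z, 1) - ψ (F (z, 1)) • e = w
      rw [top z z1, z2]
      simp
  let L : Z × ℝ →ₗ[ℝ] Y := ((LinearMap.ker (ψ : Y →ₗ[ℝ] ℝ)).subtype ∘ₗ T.toLinearEquiv.toLinearMap).coprod
    (LinearMap.toSpanSingleton ℝ Y e)
  have Ld : ∀ z t, L (z, t) = T z + t • e := fun z t => rfl
  have L0 : ∀ z, ‖L (z, 0)‖ = ‖z‖ := fun z => by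
    rw [Ld, zero_smul, add_zero]
    exact T.norm_map z
  have Lp : ∀ z t, ψ (L (z, t)) = t := fun z t => by
    have : ψ (T z) = 0 := (T z).2
    rw [Ld, map_add, this, map_smul, pe]
    simp
  have Ls : ∀ y, ∃ v, L (v, ψ y) = y := fun y => ⟨T.symm (pr y), by
    rw [Ld, T.apply_symm_apply]; simp [pr]⟩
  have A0 : ∀ z, ‖z‖ < 1 → L (z, 1) = F (z, 1) := fun z hz => by
    rw [Ld, hT z hz]
    simp [pr, top z hz]
  have A : ∀ z, ‖z‖ ≤ 1 → L (z, 1) = F (z, 1) := fun z hz => by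
    refine eq_of_forall_dist_le fun ε hε => ?_
    have s0 : 0 < min 1 (ε / 2) := by positivity
    have s1 := min_le_left 1 (ε / 2)
    have s2 := min_le_right 1 (ε / 2)
    generalize min 1 (ε / 2) = s at s0 s1 s2
    have z0 := norm_nonneg z
    have a : ‖(1 - s) • z‖ < 1 := by
      rw [norm_smul, Real.norm_of_nonneg (by linarith)]; nlinarith
    have b : ‖z - (1 - s) • z‖ ≤ s := by
      rw [show z - (1 - s) • z = s • z by module, norm_smul, Real.norm_of_nonneg s0.le]; nlinarith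
    have c := dist_triangle_right (L (z, 1)) (F (z, 1)) (L ((1 - s) • z, 1))
    rw [dist_eq_norm (L _) (L _), ← map_sub, Prod.mk_sub_mk, sub_self, L0, A0 _ a, dist_eq_norm (F _),
      Fi _ _ (n1 z hz) (n1 _ a.le), Prod.mk_sub_mk, nm, sub_self, abs_zero,
      max_eq_left (norm_nonneg _)] at c
    linarith
  have B : ∀ z, ‖z‖ ≤ 1 → L (z, -1) = F (z, -1) := fun z hz => by
    have := Fo _ (n1 (-z) (by rwa [norm_neg]))
    rw [← A _ (by rwa [norm_neg]), ← map_neg] at this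
    simpa using this.symm
  have I1 : ∀ a, ‖L (a, 1)‖ = 1 → ‖a‖ ≤ 1 := fun a ha => by
    obtain ⟨⟨z, t⟩, c, k⟩ := Fs _ ha
    have q := pl (L (a, 1) + e)
    rw [map_add, Lp, pe, ← k, he, Fa _ _ c n0, Prod.mk_add_mk, add_zero, nm] at q
    rw [nm] at c
    have z1 : ‖z‖ ≤ 1 := c ▸ le_max_left _ _
    have t1 : |t| ≤ 1 := c ▸ le_max_right _ _
    have t2 : t = 1 := by
      rcases le_max_iff.1 q with k | k
      · norm_num at k; linarith
      · norm_num at k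
        rcases abs_cases (t + 1) with j | j <;> linarith [abs_le.1 t1]
    have := Fi _ _ (n1 z z1) n0
    rw [← t2, k, t2, ← A 0 (by simp), ← map_sub, Prod.mk_sub_mk, Prod.mk_sub_mk, sub_self, sub_zero,
      sub_zero, L0, nm, abs_zero, max_eq_left (norm_nonneg _)] at this
    linarith
  have I2 : ∀ a (r : ℝ), ‖L (a, r)‖ = |r| → ‖a‖ ≤ |r| := fun a r ha => by
    rcases eq_or_ne r 0 with rfl | r0
    · rw [← ha, L0]
    · have p := abs_pos.2 r0
      have := I1 (r⁻¹ • a) (by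
        rw [show (r⁻¹ • a, (1 : ℝ)) = r⁻¹ • (a, r) by simp [inv_mul_cancel₀ r0], map_smul, norm_smul, ha,
          norm_inv, Real.norm_eq_abs, inv_mul_cancel₀ p.ne'])
      rwa [norm_smul, norm_inv, Real.norm_eq_abs, inv_mul_le_iff₀ p, mul_one] at this
  have C : ∀ z s, ‖(z, s)‖ = 1 → ∃ v, L (v, s) = F (z, s) ∧ ‖v‖ ≤ 1 ∧ ∀ u, ‖u‖ ≤ 1 →
      ‖L (v - u, s - 1)‖ = max ‖z - u‖ |s - 1| ∧ ‖L (v - u, s + 1)‖ = max ‖z - u‖ |s + 1| :=
    fun z s c => by
    obtain ⟨v, hv⟩ := Ls (F (z, s))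
    have z1 : ‖z‖ ≤ 1 := c ▸ le_max_left _ _
    have s1 : |s| ≤ 1 := c ▸ le_max_right _ _
    have s2 := abs_le.1 s1
    have k : ∀ u, ‖u‖ ≤ 1 → ‖L (v - u, ψ (F (z, s)) - 1)‖ = max ‖z - u‖ |s - 1| ∧
        ‖L (v - u, ψ (F (z, s)) + 1)‖ = max ‖z - u‖ |s + 1| := fun u hu => by
      constructor
      · rw [← Prod.mk_sub_mk, map_sub, hv, A u hu, Fi _ _ c (n1 u hu), Prod.mk_sub_mk, nm]
      · rw [← sub_neg_eq_add, ← Prod.mk_sub_mk, map_sub, hv, B u hu, Fi _ _ c (by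
          rw [nm, abs_neg, abs_one, max_eq_right hu]), Prod.mk_sub_mk, nm, sub_neg_eq_add]
    have t : ψ (F (z, s)) = s := by
      have a := pl (L (v - z, ψ (F (z, s)) - 1))
      have b := pl (L (v - z, ψ (F (z, s)) + 1))
      rw [Lp, (k z z1).1, sub_self, norm_zero, max_eq_right (abs_nonneg _),
        abs_of_nonpos (by linarith : s - 1 ≤ 0)] at a
      rw [Lp, (k z z1).2, sub_self, norm_zero, max_eq_right (abs_nonneg _),
        abs_of_nonneg (by linarith : 0 ≤ s + 1)] at b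
      linarith [abs_le.1 a, abs_le.1 b]
    rw [t] at k hv
    refine ⟨v, hv, ?_, k⟩
    have z0 := norm_nonneg z
    have a0 := abs_nonneg s
    have u1 : ‖|s| • z‖ ≤ |s| := by rw [norm_smul, Real.norm_of_nonneg a0]; nlinarith
    have u2 : ‖z - |s| • z‖ ≤ 1 - |s| := by
      rw [show z - |s| • z = (1 - |s|) • z by module, norm_smul, Real.norm_of_nonneg (by linarith)]
      nlinarith
    have u3 := norm_add_le (v - |s| • z) (|s| • z)
    rw [sub_add_cancel] at u3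
    have k' := k _ (u1.trans s1)
    rcases abs_cases s with j | j
    · have r : |s - 1| = 1 - |s| := by rw [abs_of_nonpos (by linarith : s - 1 ≤ 0)]; linarith
      have := I2 _ _ (k'.1.trans (max_eq_right (r ▸ u2)))
      linarith
    · have r : |s + 1| = 1 - |s| := by rw [abs_of_nonneg (by linarith : 0 ≤ s + 1)]; linarith
      have := I2 _ _ (k'.2.trans (max_eq_right (r ▸ u2)))
      linarith
  have inj : ∀ a b a' b', L (a, b) = L (a', b') → a = a' := fun a b a' b' h => by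
    have hb : b = b' := by rw [← Lp a b, h, Lp]
    have := L0 (a - a')
    rw [← sub_self b, ← Prod.mk_sub_mk, map_sub, h, hb, sub_self, norm_zero] at this
    exact sub_eq_zero.1 (norm_eq_zero.1 this.symm)
  have D : ∀ a b, ‖L (a, b)‖ = max ‖a‖ |b| := fun a b => by
    refine le_antisymm ?_ (max_le ?_ (by simpa [Lp] using pl (L (a, b))))
    · rcases (le_max_of_le_left (norm_nonneg a) : 0 ≤ max ‖a‖ |b|).eq_or_lt with c | c
      · have h1 : a = 0 := norm_le_zero_iff.1 (c ▸ le_max_left _ _)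
        have h2 : b = 0 := abs_nonpos_iff.1 (c ▸ le_max_right _ _)
        simp [h1, h2, Ld]
      · have h1 := le_max_left ‖a‖ |b|
        have h2 := abs_le.1 (le_max_right ‖a‖ |b|)
        generalize max ‖a‖ |b| = c' at c h1 h2
        have h3 : ‖c'⁻¹ • a‖ ≤ 1 := by
          rwa [norm_smul, norm_inv, Real.norm_of_nonneg c.le, inv_mul_le_iff₀ c, mul_one]
        have h4 : (a, b) = ((c' + b) / 2) • (c'⁻¹ • a, (1 : ℝ)) + ((c' - b) / 2) • (c'⁻¹ • a, (-1 : ℝ)) := by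
          ext
          · simp only [Prod.fst_add, Prod.smul_fst, smul_smul, ← add_smul]
            rw [show (c' + b) / 2 * c'⁻¹ + (c' - b) / 2 * c'⁻¹ = 1 by field_simp; ring, one_smul]
          · simp; ring
        rw [h4, map_add, map_smul, map_smul, A _ h3, B _ h3]
        refine (norm_add_le _ _).trans (le_of_eq ?_)
        rw [norm_smul, norm_smul, F1 _ (n1 _ h3), F1 _ (by rw [nm, abs_neg, abs_one, max_eq_right h3]),
          Real.norm_of_nonneg (by linarith), Real.norm_of_nonneg (by linarith)]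
        ring
    · rcases (norm_nonneg (L (a, b))).eq_or_lt with c | c
      · rw [inj a b 0 0 (by rw [norm_eq_zero.1 c.symm, Ld]; simp)]
        simp
      · obtain ⟨⟨z, s⟩, x1, x2⟩ := Fs (‖L (a, b)‖⁻¹ • L (a, b)) (by
          rw [norm_smul, norm_inv, norm_norm, inv_mul_cancel₀ c.ne'])
        obtain ⟨v, v1, v2, -⟩ := C z s x1
        rw [x2, ← map_smul, Prod.smul_mk] at v1
        rwa [inj _ _ _ _ v1, norm_smul, norm_inv, norm_norm, inv_mul_le_iff₀ c, mul_one] at v2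
  refine ⟨LinearIsometryEquiv.ofSurjective ⟨L, fun x => D x.1 x.2⟩ fun y => ?_, ?_⟩
  · obtain ⟨v, hv⟩ := Ls y
    exact ⟨_, hv⟩
  · rintro ⟨z, s⟩ c
    obtain ⟨v, v1, v2, k⟩ := C z s c
    have z1 : ‖z‖ ≤ 1 := c ▸ le_max_left _ _
    have s1 : |s| ≤ 1 := c ▸ le_max_right _ _
    have s2 := abs_le.1 s1
    have : v = z := chord z1 v2 fun u hu => by
      have k' := k u hu
      rw [D, D] at k'
      rcases le_total 0 s with j | j
      · have r : |s - 1| ≤ 1 := abs_le.2 ⟨by linarith, by linarith⟩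
        rw [← and_iff_left r (a := ‖v - u‖ ≤ 1), ← and_iff_left r (a := ‖z - u‖ ≤ 1), ← max_le_iff,
          ← max_le_iff, k'.1]
      · have r : |s + 1| ≤ 1 := abs_le.2 ⟨by linarith, by linarith⟩
        rw [← and_iff_left r (a := ‖v - u‖ ≤ 1), ← and_iff_left r (a := ‖z - u‖ ≤ 1), ← max_le_iff,
          ← max_le_iff, k'.2]
    rw [← v1, this]
    rfl

end Vale.Agent.P084.H1
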