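import Mathlib

namespace Vale.Agent.P084.J

open Matrix Finset Module
open scoped InnerProductSpace MatrixOrder

theorem cara {V : Type} [AddCommGroup V] [Module ℝ V] [FiniteDimensional ℝ V] {s : Set V} {s0 x : V}
    (h0 : s0 ∈ s) (hx : x ∈ convexHull ℝ s) : ∃ (w : Fin (finrank ℝ V + 1) → ℝ) (z : Fin (finrank ℝ V + 1) → V),
      w ∈ stdSimplex ℝ (Fin (finrank ℝ V + 1)) ∧ (∀ i, z i ∈ s) ∧ ∑ i, w i • z i = x := by
  classical
  obtain ⟨ι, _, z, w, h1, h2, h3, h4, h5⟩ := eq_pos_convex_span_of_mem_convexHull hx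
  have hc : Fintype.card ι ≤ Fintype.card (Fin (finrank ℝ V + 1)) := by
    rw [Fintype.card_fin]
    exact h2.card_le_finrank_succ.trans (Nat.succ_le_succ (Submodule.finrank_le _))
  obtain ⟨g⟩ := Function.Embedding.nonempty_of_card_le hc
  have key : ∀ {W : Type} [AddCommMonoid W] (F : Fin (finrank ℝ V + 1) → W), (∀ j, (¬∃ a, g a = j) → F j = 0) →
      ∑ j, F j = ∑ i, F (g i) := fun F hF => by
    rw [← Finset.sum_map univ g F]
    exact (Finset.sum_subset (subset_univ _) fun j _ hj => hF j (by simpa using hj)).symm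
  refine ⟨Function.extend g w 0, Function.extend g z fun _ => s0, ⟨fun j => ?_, ?_⟩, fun j => ?_, ?_⟩
  · by_cases h : ∃ a, g a = j
    · obtain ⟨a, rfl⟩ := h
      rw [g.injective.extend_apply]; exact (h3 a).le
    · rw [Function.extend_apply' _ _ _ h]; rfl
  · rw [key _ fun j h => by rw [Function.extend_apply' _ _ _ h]; rfl]
    simp only [g.injective.extend_apply, h4]
  · by_cases h : ∃ a, g a = j
    · obtain ⟨a, rfl⟩ := h
      rw [g.injective.extend_apply]; exact h1 ⟨a, rfl⟩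
    · rw [Function.extend_apply' _ _ _ h]; exact h0
  · rw [key _ fun j h => by rw [Function.extend_apply' _ _ _ h]; simp]
    simp only [g.injective.extend_apply, h5]

theorem num {n : ℕ} (hn : 0 < n) {s : ℝ} (hs : 0 ≤ s)
    (h : ∀ t : ℝ, 0 < t → t < 1 → (1 - t) ^ n * (1 + t * n / (1 - t) * s) ≤ 1) : s ≤ 1 := by
  by_contra hh
  have h1 : 1 < s := not_le.1 hh
  have n1 : (1 : ℝ) ≤ n := by exact_mod_cast hn
  set a := (s - 1) / (2 * s) with ha
  have a0 : 0 < a := div_pos (by linarith) (by linarith)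
  have a1 : a * (2 * s) = s - 1 := by rw [ha]; field_simp
  have a2 : a < 1 := by nlinarith
  have t0 : 0 < a / n := by positivity
  have t1 : a / n < 1 := by rw [div_lt_one (by linarith)]; linarith
  have k := h _ t0 t1
  have b : 1 - a ≤ (1 - a / n) ^ n := by
    have := one_add_mul_le_pow (a := -(a / n)) (by linarith) n
    have e : (n : ℝ) * -(a / n) = -a := by field_simp
    rw [e] at this
    simpa [sub_eq_add_neg] using this
  have e2 : a / n * n = a := by field_simp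
  rw [e2] at k
  have c : a ≤ a / (1 - a / n) := by
    rw [le_div_iff₀ (by linarith)]; nlinarith
  have c2 : (1 - a) * (1 + a * s) ≤ (1 - a / n) ^ n * (1 + a / (1 - a / n) * s) :=
    mul_le_mul b (by nlinarith) (by positivity) (by linarith)
  nlinarith [mul_pos a0 (sub_pos.2 h1)]

theorem design {n : ℕ} (hn : 0 < n) {B : Set (Fin n → ℝ)} (hB : IsCompact B) {r : ℝ} (hr : 0 < r)
    (h1 : ∀ j, Pi.single j r ∈ B) : ∃ (k : ℕ) (w : Fin k → ℝ) (z : Fin k → Fin n → ℝ) (S : Matrix (Fin n) (Fin n) ℝ),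
      (∀ i, 0 ≤ w i) ∧ ∑ i, w i = n ∧ (∀ i, z i ∈ B) ∧ S.det ≠ 0 ∧ ∑ i, w i • vecMulVec (z i) (z i) = Sᵀ * S ∧
        ∀ y, Sᵀ *ᵥ y ∈ B → y ⬝ᵥ y ≤ 1 := by
  set N := finrank ℝ (Matrix (Fin n) (Fin n) ℝ) + 1
  have n0 : (0 : ℝ) < n := by exact_mod_cast hn
  let s : Set (Matrix (Fin n) (Fin n) ℝ) := (fun v => vecMulVec v v) '' B
  let F : (Fin N → ℝ) × (Fin N → Fin n → ℝ) → ℝ := fun p => (∑ i, p.1 i • vecMulVec (p.2 i) (p.2 i)).det
  have Fc : Continuous F := by
    refine Continuous.matrix_det (continuous_finset_sum _ fun i _ => continuous_matrix fun a b => ?_)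
    simp only [Matrix.smul_apply, vecMulVec_apply, smul_eq_mul]
    fun_prop
  have Dc : IsCompact (stdSimplex ℝ (Fin N) ×ˢ Set.pi Set.univ fun _ : Fin N => B) :=
    (isCompact_stdSimplex ℝ _).prod (isCompact_univ_pi fun _ => hB)
  have rep : ∀ A ∈ convexHull ℝ s, ∃ p ∈ (stdSimplex ℝ (Fin N) ×ˢ Set.pi Set.univ fun _ : Fin N => B),
      F p = A.det := fun A hA => by
    obtain ⟨w, z, a1, a2, a3⟩ := cara (s := s) (Set.mem_image_of_mem _ (h1 ⟨0, hn⟩)) hA
    choose v v1 v2 using a2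
    exact ⟨(w, v), ⟨a1, fun i _ => v1 i⟩, by
      simp only [F]; rw [← a3]; simp only [← v2]; all_goals rfl⟩
  have m0 : (r ^ 2 / n) • (1 : Matrix (Fin n) (Fin n) ℝ) ∈ convexHull ℝ s := by
    have := (convex_convexHull ℝ s).sum_mem (t := univ) (w := fun _ : Fin n => (1 / n : ℝ))
      (z := fun j => vecMulVec (Pi.single j r) (Pi.single j r)) (fun _ _ => by positivity)
      (by simp; field_simp) fun j _ => subset_convexHull ℝ s ⟨_, h1 j, rfl⟩
    have e : ∑ j : Fin n, (1 / n : ℝ) • vecMulVec (Pi.single j r) (Pi.single j r) =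
        (r ^ 2 / n) • (1 : Matrix (Fin n) (Fin n) ℝ) := by
      ext a b
      rw [Matrix.sum_apply, Finset.sum_eq_single a (fun j _ hj => by simp [vecMulVec_apply, Pi.single_apply, hj.symm])
        (by simp)]
      by_cases hab : a = b
      · subst hab; simp [vecMulVec_apply]; ring
      · simp [vecMulVec_apply, Pi.single_apply, hab, Ne.symm hab]
    rwa [e] at this
  obtain ⟨p0, q0, q1⟩ := rep _ m0
  obtain ⟨⟨w, z⟩, ⟨w1, z1⟩, hmax⟩ := Dc.exists_isMaxOn ⟨p0, q0⟩ Fc.continuousOn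
  set A := ∑ i, w i • vecMulVec (z i) (z i) with hA
  have mx : ∀ A' ∈ convexHull ℝ s, A'.det ≤ A.det := fun A' h => by
    obtain ⟨p, a, b⟩ := rep _ h
    rw [← b]; exact hmax a
  have dA : 0 < A.det := lt_of_lt_of_le (by rw [det_smul, det_one, mul_one]; positivity) (mx _ m0)
  have Am : A ∈ convexHull ℝ s := (convex_convexHull ℝ s).sum_mem (fun i _ => w1.1 i) w1.2
    fun i _ => subset_convexHull ℝ s ⟨_, z1 i trivial, rfl⟩
  have ps : ((n : ℝ) • A).PosSemidef := (posSemidef_sum univ fun i _ =>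
    (by simpa using posSemidef_vecMulVec_self_star (z i) : (vecMulVec (z i) (z i)).PosSemidef).smul (w1.1 i)).smul n0.le
  obtain ⟨S, hS⟩ := CStarAlgebra.nonneg_iff_eq_star_mul_self.mp ps.nonneg
  rw [star_eq_conjTranspose, conjTranspose_eq_transpose_of_trivial] at hS
  have dS : (n : ℝ) ^ n * A.det = S.det * S.det := by
    have := congrArg det hS
    rwa [det_smul, det_mul, det_transpose, Fintype.card_fin] at this
  have S0 : S.det ≠ 0 := fun h => by
    rw [h, mul_zero] at dS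
    exact absurd dS (by positivity)
  refine ⟨N, fun i => n * w i, z, S, fun i => mul_nonneg n0.le (w1.1 i), by rw [← Finset.mul_sum, w1.2, mul_one],
    fun i => z1 i trivial, S0, by rw [← hS, hA, Finset.smul_sum]; simp only [smul_smul], fun y hy => ?_⟩
  refine num hn (by simp only [dotProduct]; exact sum_nonneg fun i _ => mul_self_nonneg _) fun t t0 t1 => ?_
  have k := mx _ ((convex_convexHull ℝ s) Am (subset_convexHull ℝ s ⟨_, hy, rfl⟩) (a := 1 - t) (b := t)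
    (by linarith) t0.le (by ring))
  have t2 : (0 : ℝ) < 1 - t := by linarith
  have e : (1 - t) • A + t • vecMulVec (Sᵀ *ᵥ y) (Sᵀ *ᵥ y) =
      ((1 - t) / n) • (Sᵀ * (1 + vecMulVec ((t * n / (1 - t)) • y) y) * S) := by
    rw [Matrix.mul_add, Matrix.add_mul, Matrix.mul_one, ← hS, mul_vecMulVec, vecMulVec_mul, mulVec_smul,
      ← mulVec_transpose, smul_add, smul_smul, smul_vecMulVec, smul_smul]
    congr 2 <;> field_simp
  simp only at k
  rw [e, det_smul, det_mul, det_mul, det_transpose, vecMulVec_eq Unit, det_one_add_replicateCol_mul_replicateRow,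
    Fintype.card_fin, dotProduct_smul, smul_eq_mul, div_pow] at k
  have e3 : (1 - t) ^ n / (n : ℝ) ^ n * (S.det * (1 + t * n / (1 - t) * (y ⬝ᵥ y)) * S.det) =
      ((1 - t) ^ n * (1 + t * n / (1 - t) * (y ⬝ᵥ y))) * A.det := by
    rw [mul_right_comm S.det, ← dS]; field_simp
  rw [e3] at k
  exact le_of_mul_le_mul_right (by rwa [one_mul]) dA

theorem john (X : Type*) [NormedAddCommGroup X] [NormedSpace ℝ X] [FiniteDimensional ℝ X] (hn : 0 < finrank ℝ X) :
    ∃ (e : X ≃L[ℝ] EuclideanSpace ℝ (Fin (finrank ℝ X))) (k : ℕ) (c : Fin k → ℝ)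
      (u : Fin k → EuclideanSpace ℝ (Fin (finrank ℝ X))), (∀ i, 0 ≤ c i) ∧ ∑ i, c i = finrank ℝ X ∧
      (∀ i x, |⟪u i, e x⟫_ℝ| ≤ ‖x‖) ∧ (∀ v, ∑ i, c i • ⟪u i, v⟫_ℝ • u i = v) ∧ ∀ x, ‖x‖ ≤ ‖e x‖ := by
  set n := finrank ℝ X
  let b := (Module.finBasis ℝ X).equivFunL
  let B : Set (Fin n → ℝ) := {v | ∀ x, |v ⬝ᵥ b x| ≤ ‖x‖}
  have Bc : IsCompact B := by
    refine Metric.isCompact_of_isClosed_isBounded ?_ ?_
    · simp only [B, Set.setOf_forall]
      exact isClosed_iInter fun x => isClosed_le (by simp only [dotProduct]; fun_prop) continuous_const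
    · refine (Metric.isBounded_closedBall (x := 0) (r := ∑ j, ‖b.symm (Pi.single j 1)‖)).subset fun v hv => ?_
      rw [mem_closedBall_zero_iff, pi_norm_le_iff_of_nonneg (sum_nonneg fun _ _ => norm_nonneg _)]
      intro j
      have := hv (b.symm (Pi.single j 1))
      rw [b.apply_symm_apply, dotProduct_single, mul_one] at this
      exact this.trans (single_le_sum (f := fun j => ‖b.symm (Pi.single j 1)‖) (fun _ _ => norm_nonneg _) (mem_univ j))
  set C := ‖(b : X →L[ℝ] Fin n → ℝ)‖ + 1 with hC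
  have C0 : 0 < C := by positivity
  obtain ⟨k, w, z, S, w0, w1, z1, S0, hS, hy⟩ := design hn Bc (r := C⁻¹) (by positivity) fun j x => by
    rw [single_dotProduct, abs_mul, abs_of_pos (inv_pos.2 C0), inv_mul_le_iff₀ C0]
    have := (norm_le_pi_norm (b x) j).trans ((b : X →L[ℝ] Fin n → ℝ).le_opNorm x)
    have h2 := norm_nonneg x
    rw [Real.norm_eq_abs] at this
    nlinarith
  have SU : IsUnit S.det := S0.isUnit
  have TU : IsUnit Sᵀ.det := by rwa [det_transpose]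
  let L : (Fin n → ℝ) ≃ₗ[ℝ] (Fin n → ℝ) := Matrix.toLinearEquiv' S (invertibleOfIsUnitDet S SU)
  have hL : ∀ v, L v = S *ᵥ v := fun v => rfl
  let e : X ≃L[ℝ] EuclideanSpace ℝ (Fin n) :=
    (b.trans L.toContinuousLinearEquiv).trans (EuclideanSpace.equiv (Fin n) ℝ).symm
  have he : ∀ x, e x = WithLp.toLp 2 (S *ᵥ b x) := fun x => rfl
  have ip : ∀ p q : Fin n → ℝ, ⟪(WithLp.toLp 2 p : EuclideanSpace ℝ (Fin n)), WithLp.toLp 2 q⟫_ℝ = p ⬝ᵥ q :=
    fun p q => by rw [EuclideanSpace.inner_toLp_toLp, star_trivial, dotProduct_comm]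
  have tr : ∀ p q : Fin n → ℝ, (Sᵀ⁻¹ *ᵥ p) ⬝ᵥ (S *ᵥ q) = p ⬝ᵥ q := fun p q => by
    rw [dotProduct_mulVec, ← mulVec_transpose, mulVec_mulVec, mul_nonsing_inv _ TU, one_mulVec]
  refine ⟨e, k, w, fun i => WithLp.toLp 2 (Sᵀ⁻¹ *ᵥ z i), w0, w1, fun i x => ?_, fun v => ?_, fun x => ?_⟩
  · rw [he, ip, tr]; exact z1 i x
  · obtain ⟨x, rfl⟩ := e.surjective v
    simp only [he, ip, tr]
    have := congrArg (fun M => Sᵀ⁻¹ *ᵥ (M *ᵥ b x)) hS
    simp only [sum_mulVec, smul_mulVec, vecMulVec_mulVec, mulVec_sum, mulVec_smul, op_smul_eq_smul] at this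
    rw [mulVec_mulVec, ← Matrix.mul_assoc, nonsing_inv_mul _ TU, Matrix.one_mul] at this
    rw [← this, WithLp.toLp_sum]
    rfl
  · by_cases hx : x = 0
    · simp [hx]
    obtain ⟨φ, p1, p2⟩ := exists_dual_vector ℝ x (norm_ne_zero_iff.2 hx)
    let v : Fin n → ℝ := fun j => φ (b.symm (Pi.single j 1))
    have hv : ∀ x', v ⬝ᵥ b x' = φ x' := fun x' => by
      conv_rhs => rw [← b.symm_apply_apply x', pi_eq_sum_univ' (b x')]
      simp only [map_sum, map_smul, smul_eq_mul, dotProduct, v, mul_comm]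
      all_goals rfl
    have vB : v ∈ B := fun x' => by
      rw [hv]
      have := φ.le_opNorm x'
      rwa [p1, one_mul] at this
    have y1 := hy (Sᵀ⁻¹ *ᵥ v) (by rwa [mulVec_mulVec, mul_nonsing_inv _ TU, one_mulVec])
    have y2 := real_inner_le_norm (WithLp.toLp 2 (Sᵀ⁻¹ *ᵥ v) : EuclideanSpace ℝ (Fin n)) (e x)
    rw [← ip, real_inner_self_eq_norm_sq] at y1
    have y3 : ‖(WithLp.toLp 2 (Sᵀ⁻¹ *ᵥ v) : EuclideanSpace ℝ (Fin n))‖ ≤ 1 := by
      nlinarith [norm_nonneg (WithLp.toLp 2 (Sᵀ⁻¹ *ᵥ v) : EuclideanSpace ℝ (Fin n))]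
    have y4 : ⟪(WithLp.toLp 2 (Sᵀ⁻¹ *ᵥ v) : EuclideanSpace ℝ (Fin n)), e x⟫_ℝ = ‖x‖ := by
      rw [he, ip, tr, hv, p2]; rfl
    nlinarith [norm_nonneg (e x)]

end Vale.Agent.P084.J
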