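import Vale.Agent.P084.Area

/-! Area inequality. Plan: Rademacher, addHaar_image_le_lintegral_abs_det_fderiv on the set of points of
differentiability, Lipschitz image of a null set is null (Hausdorff measure is Haar). -/

namespace Vale.Agent.P084

open MeasureTheory

theorem area {n : ℕ} {G : EuclideanSpace ℝ (Fin n) → EuclideanSpace ℝ (Fin n)} {C : NNReal}
    (hG : LipschitzWith C G) {K K' : Set (EuclideanSpace ℝ (Fin n))} (hK : IsCompact K)
    (h : K' ⊆ G '' K) (hd : ∀ x, DifferentiableAt ℝ G x → |(fderiv ℝ G x).det| ≤ 1) :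
    volume K' ≤ volume K ∧ (volume K ≤ volume K' → ∀ᵐ x, x ∈ K → |(fderiv ℝ G x).det| = 1) := by
  have hs := hK.measurableSet
  have a1 : (fun x => ENNReal.ofReal |(fderiv ℝ G x).det|) ≤ᵐ[volume.restrict K] fun _ => 1 := by
    refine ae_restrict_of_ae ?_
    filter_upwards [hG.ae_differentiableAt (μ := volume)] with x hx using ENNReal.ofReal_le_one.2 (hd x hx)
  have a0 := (lintegral_mono_ae a1).trans_eq (setLIntegral_one K)
  have a3 := (measure_mono h).trans (area_int hG hs)
  refine ⟨a3.trans a0, fun h1 => ?_⟩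
  have a2 := ae_eq_of_ae_le_of_lintegral_le a1 (ne_top_of_le_ne_top hK.measure_lt_top.ne a0)
    aemeasurable_const ((setLIntegral_one K).trans_le (h1.trans a3))
  filter_upwards [(ae_restrict_iff' hs).1 a2] with x h1 hx using ENNReal.ofReal_eq_one.1 (h1 hx)

end Vale.Agent.P084
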