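import Vale.Agent.P084.John

/-! John position, through the determinant-maximising design on the dual ball. -/

open scoped RealInnerProductSpace

namespace Vale.Agent.P084

theorem john {X : Type*} [NormedAddCommGroup X] [NormedSpace ℝ X] [FiniteDimensional ℝ X] {n : ℕ}
    (hn : Module.finrank ℝ X = n) :
    ∃ (L : X ≃L[ℝ] EuclideanSpace ℝ (Fin n)) (m : ℕ) (c : Fin m → ℝ)
      (p : Fin m → EuclideanSpace ℝ (Fin n)), (∀ i, 0 ≤ c i) ∧ ∑ i, c i ≤ n ∧
      (∀ i x, ⟪p i, L x⟫ ≤ ‖x‖) ∧ (∀ x, ‖x‖ ≤ ‖L x‖) ∧ ∀ v, ∑ i, (c i * ⟪p i, v⟫) • p i = v := by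
  rcases Nat.eq_zero_or_pos n with h | h
  · subst h
    haveI : Subsingleton X := Module.finrank_zero_iff.1 hn
    refine ⟨ContinuousLinearEquiv.ofFinrankEq (by simp [hn]), 0, 0, 0, fun i => i.elim0, by simp,
      fun i => i.elim0, fun x => by simp [Subsingleton.elim x 0], fun v => Subsingleton.elim _ _⟩
  · subst hn
    obtain ⟨e, k, c, u, h1, h2, h3, h4, h5⟩ := J.john X h
    exact ⟨e, k, c, u, h1, h2.le, fun i x => (le_abs_self _).trans (h3 i x), h5, fun v => by
      simpa only [smul_smul] using h4 v⟩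

end Vale.Agent.P084
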