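import Mathlib

/-! The convex hull of a compact set in finite dimension is compact (Caratheodory). -/

namespace Vale.Agent.P084

open Set

theorem hull_rep {E : Type*} [NormedAddCommGroup E] [NormedSpace ℝ E] [FiniteDimensional ℝ E]
    {K : Set E} (hK : K.Nonempty) {x : E} (hx : x ∈ convexHull ℝ K) :
    ∃ (w : Fin (Module.finrank ℝ E + 1) → ℝ) (z : Fin (Module.finrank ℝ E + 1) → E),
      (∀ i, 0 ≤ w i) ∧ ∑ i, w i = 1 ∧ (∀ i, z i ∈ K) ∧ ∑ i, w i • z i = x := by
  classical
  obtain ⟨ι, _, z, w, hz, hi, hw0, hw1, hx⟩ := eq_pos_convex_span_of_mem_convexHull hx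
  have hc : Fintype.card ι ≤ Fintype.card (Fin (Module.finrank ℝ E + 1)) := by
    rw [Fintype.card_fin]
    exact hi.card_le_finrank_succ.trans (Nat.succ_le_succ (Submodule.finrank_le _))
  obtain ⟨e⟩ := Function.Embedding.nonempty_of_card_le hc
  obtain ⟨k, hk⟩ := hK
  refine ⟨Function.extend e w 0, Function.extend e z fun _ => k, fun i => ?_, ?_, fun i => ?_, ?_⟩
  · by_cases h : ∃ a, e a = i
    · obtain ⟨a, rfl⟩ := h
      rw [e.injective.extend_apply]; exact (hw0 a).le
    · rw [Function.extend_apply' _ _ _ h]; exact le_rfl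
  · rw [← hw1]
    symm
    refine Finset.sum_of_injOn e e.injective.injOn (by simp) (fun i _ h => ?_) fun a _ => ?_
    · rw [Function.extend_apply' _ _ _ (by simpa using h)]; rfl
    · rw [e.injective.extend_apply]
  · by_cases h : ∃ a, e a = i
    · obtain ⟨a, rfl⟩ := h
      rw [e.injective.extend_apply]; exact hz ⟨a, rfl⟩
    · rw [Function.extend_apply' _ _ _ h]; exact hk
  · rw [← hx]
    symm
    refine Finset.sum_of_injOn e e.injective.injOn (by simp) (fun i _ h => ?_) fun a _ => ?_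
    · rw [Function.extend_apply' _ _ _ (by simpa using h)]; simp
    · rw [e.injective.extend_apply, e.injective.extend_apply]

theorem hull_compact {E : Type*} [NormedAddCommGroup E] [NormedSpace ℝ E] [FiniteDimensional ℝ E]
    {K : Set E} (hK : IsCompact K) : IsCompact (convexHull ℝ K) := by
  rcases K.eq_empty_or_nonempty with rfl | hne
  · simp
  have hc : IsCompact (stdSimplex ℝ (Fin (Module.finrank ℝ E + 1)) ×ˢ
      (Set.univ.pi fun _ : Fin (Module.finrank ℝ E + 1) => K)) :=
    (isCompact_stdSimplex ℝ _).prod (isCompact_univ_pi fun _ => hK)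
  have hf : Continuous fun p : (Fin (Module.finrank ℝ E + 1) → ℝ) × (Fin (Module.finrank ℝ E + 1) → E) =>
      ∑ i, p.1 i • p.2 i := by fun_prop
  convert hc.image hf using 1
  ext x
  constructor
  · intro hx
    obtain ⟨w, z, h0, h1, h2, h3⟩ := hull_rep hne hx
    exact ⟨(w, z), ⟨⟨h0, h1⟩, fun i _ => h2 i⟩, h3⟩
  · rintro ⟨⟨w, z⟩, ⟨⟨h0, h1⟩, h2⟩, rfl⟩
    exact (convex_convexHull ℝ K).sum_mem (fun i _ => h0 i) h1
      fun i _ => subset_convexHull ℝ K (h2 i trivial)

end Vale.Agent.P084
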