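import Mathlib

/-! John position through a D-optimal design. -/

open scoped RealInnerProductSpace MatrixOrder
open Matrix Finset

namespace Vale.Agent.P084

namespace J2

theorem opt {n : ℕ} (K : Set (Fin n → ℝ)) (hK : IsCompact K) (ne : K.Nonempty) :
    ∃ (m : ℕ) (w : Fin m → ℝ) (p : Fin m → Fin n → ℝ), (∀ i, 0 ≤ w i) ∧ ∑ i, w i = 1 ∧ (∀ i, p i ∈ K) ∧
      ∀ R ∈ convexHull ℝ ((fun q => vecMulVec q q) '' K), R.det ≤ (∑ i, w i • vecMulVec (p i) (p i)).det := by
  let N := Module.finrank ℝ (Matrix (Fin n) (Fin n) ℝ)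
  let D : Fin (N + 2) → Set (Matrix (Fin n) (Fin n) ℝ) := fun k =>
    (fun x : (Fin k → ℝ) × (Fin k → Fin n → ℝ) => ∑ i, x.1 i • vecMulVec (x.2 i) (x.2 i)) ''
      (stdSimplex ℝ (Fin k) ×ˢ Set.pi Set.univ fun _ => K)
  have c : IsCompact (⋃ k, D k) := isCompact_iUnion fun k =>
    ((isCompact_stdSimplex ℝ _).prod (isCompact_univ_pi fun _ => hK)).image (by
      refine continuous_finsetSum _ fun i _ => Continuous.smul (f := fun x : (Fin k → ℝ) ×
        (Fin k → Fin n → ℝ) => x.1 i) (g := fun x => vecMulVec (x.2 i) (x.2 i)) (by fun_prop) ?_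
      exact Continuous.matrix_vecMulVec (by fun_prop) (by fun_prop))
  have s : ∀ R ∈ convexHull ℝ ((fun q => vecMulVec q q) '' K), R ∈ ⋃ k, D k := fun R hR => by
    obtain ⟨ι, _, z, w, h1, h2, h3, h4, h5⟩ := eq_pos_convex_span_of_mem_convexHull hR
    have k := h2.card_le_finrank_succ.trans (Nat.succ_le_succ (Submodule.finrank_le _))
    choose q q1 q2 using fun i => h1 (Set.mem_range_self i)
    let e := (Fintype.equivFin ι).symm
    refine Set.mem_iUnion.2 ⟨⟨Fintype.card ι, Nat.lt_succ_of_le k⟩, (w ∘ e, q ∘ e),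
      ⟨⟨fun i => (h3 _).le, (e.sum_comp w).trans h4⟩, fun i _ => q1 _⟩, ?_⟩
    rw [← h5, ← e.sum_comp]
    exact sum_congr rfl fun i _ => congrArg _ (q2 _)
  obtain ⟨q, hq⟩ := ne
  obtain ⟨Q, h1, h2⟩ := c.exists_isMaxOn ⟨_, s _ (subset_convexHull ℝ _ ⟨q, hq, rfl⟩)⟩
    (continuous_id.matrix_det).continuousOn
  obtain ⟨k, ⟨w, p⟩, ⟨a, b⟩, rfl⟩ := Set.mem_iUnion.1 h1
  exact ⟨k, w, p, a.1, a.2, fun i => b i trivial, fun R hR => h2 (s R hR)⟩

theorem small {n : ℕ} {a : ℝ} (hn : 0 < n) (a0 : 0 ≤ a)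
    (h : ∀ t : ℝ, 0 < t → t < 1 → (1 - t) ^ n * (1 + t * n * a / (1 - t)) ≤ 1) : a ≤ 1 := by
  have n0 : (0 : ℝ) < n := by exact_mod_cast hn
  refine le_of_forall_pos_le_add fun ε hε => ?_
  have t0 : 0 < min (1 / 2) (ε / (n * a + 1)) := by positivity
  have t1 := min_le_left (1 / 2 : ℝ) (ε / (n * a + 1))
  have t2 := min_le_right (1 / 2 : ℝ) (ε / (n * a + 1))
  generalize min (1 / 2) (ε / (n * a + 1)) = t at t0 t1 t2
  rw [le_div_iff₀ (by positivity)] at t2
  have k := h t t0 (by linarith)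
  have b := one_add_mul_le_pow (show (-2 : ℝ) ≤ -t by linarith) n
  have c : t * n * a ≤ t * n * a / (1 - t) := by
    rw [le_div_iff₀ (by linarith)]
    have : 0 ≤ t * n * a := by positivity
    nlinarith
  have d : (1 + n * -t) * (1 + t * n * a) ≤ 1 :=
    (mul_le_mul_of_nonneg_right b (by positivity)).trans ((mul_le_mul_of_nonneg_left (by linarith)
      (pow_nonneg (by linarith) n)).trans k)
  have e : (t * n) * (a - 1) ≤ (t * n) * (t * n * a) := by nlinarith
  have f := le_of_mul_le_mul_left e (by positivity)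
  nlinarith

end J2

theorem john2 {X : Type*} [NormedAddCommGroup X] [NormedSpace ℝ X] [FiniteDimensional ℝ X] {n : ℕ}
    (hn : Module.finrank ℝ X = n) :
    ∃ (L : X ≃L[ℝ] EuclideanSpace ℝ (Fin n)) (m : ℕ) (c : Fin m → ℝ)
      (p : Fin m → EuclideanSpace ℝ (Fin n)), (∀ i, 0 ≤ c i) ∧ ∑ i, c i ≤ n ∧
      (∀ i x, ⟪p i, L x⟫ ≤ ‖x‖) ∧ (∀ x, ‖x‖ ≤ ‖L x‖) ∧ ∀ v, ∑ i, (c i * ⟪p i, v⟫) • p i = v := by
  rcases Nat.eq_zero_or_pos n with rfl | n0
  · have : Subsingleton X := Module.finrank_zero_iff.1 hn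
    exact ⟨ContinuousLinearEquiv.ofFinrankEq (by simpa using hn), 0, 0, 0, by simp, by simp, by simp,
      fun x => by simp [Subsingleton.elim x 0], fun v => Subsingleton.elim _ _⟩
  have nR : (0 : ℝ) < n := by exact_mod_cast n0
  let e : X ≃L[ℝ] (Fin n → ℝ) := ContinuousLinearEquiv.ofFinrankEq (by simpa using hn)
  let K : Set (Fin n → ℝ) := {q | ∀ x, q ⬝ᵥ e x ≤ ‖x‖}
  have hK : IsCompact K := by
    refine Metric.isCompact_of_isClosed_isBounded ?_ ?_
    · simp only [K, Set.setOf_forall]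
      exact isClosed_iInter fun x => isClosed_le (by fun_prop) continuous_const
    · refine (isBounded_iff_forall_norm_le).2 ⟨∑ i, ‖e.symm (Pi.single i 1)‖, fun q hq => ?_⟩
      refine (pi_norm_le_iff_of_nonneg (by positivity)).2 fun i => le_trans ?_
        (single_le_sum (f := fun i => ‖e.symm (Pi.single i 1)‖) (fun _ _ => norm_nonneg _) (mem_univ i))
      have a := hq (e.symm (Pi.single i 1))
      have b := hq (-e.symm (Pi.single i 1))
      simp at a b
      exact abs_le.2 ⟨by linarith, a⟩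
  obtain ⟨m, w, p, w0, w1, pK, hm⟩ := J2.opt K hK ⟨0, fun x => by simp⟩
  set Q := ∑ i, w i • vecMulVec (p i) (p i) with hQ
  have QH : Q ∈ convexHull ℝ ((fun q => vecMulVec q q) '' K) :=
    (convex_convexHull ℝ _).sum_mem (fun i _ => w0 i) w1 fun i _ => subset_convexHull ℝ _ ⟨_, pK i, rfl⟩
  have d0 : 0 < Q.det := by
    obtain ⟨ε, ε0, hε⟩ : ∃ ε : ℝ, 0 < ε ∧ ∀ x, ε * ‖e x‖ ≤ ‖x‖ :=
      ⟨1 / (‖(e : X →L[ℝ] Fin n → ℝ)‖ + 1), by positivity, fun x => by
        have := (e : X →L[ℝ] Fin n → ℝ).le_opNorm x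
        rw [one_div_mul_eq_div, div_le_iff₀ (by positivity)]
        simp only [ContinuousLinearEquiv.coe_coe] at this
        nlinarith [norm_nonneg x]⟩
    have := hm _ ((convex_convexHull ℝ _).sum_mem (t := univ) (w := fun _ : Fin n => (1 / n : ℝ))
      (z := fun i => vecMulVec (Pi.single i ε) (Pi.single i ε)) (fun _ _ => by positivity)
      (by simp; field_simp) fun i _ => subset_convexHull ℝ _ ⟨_, fun x => by
        rw [single_dotProduct]
        exact (mul_le_mul_of_nonneg_left ((le_abs_self _).trans (norm_le_pi_norm (e x) i)) ε0.le).trans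
          (hε x), rfl⟩)
    refine lt_of_lt_of_le ?_ this
    rw [show ∑ i : Fin n, (1 / n : ℝ) • vecMulVec (Pi.single i ε : Fin n → ℝ) (Pi.single i ε : Fin n → ℝ) =
      diagonal fun _ => 1 / n * (ε * ε) by
        ext a b
        simp only [Matrix.sum_apply, Matrix.smul_apply, vecMulVec_apply, Pi.single_apply, diagonal_apply,
          smul_eq_mul]
        rw [sum_eq_single a (fun i _ hi => by simp [hi.symm]) (by simp)]
        by_cases h : a = b
        · simp [h]
        · simp [h, Ne.symm h], det_diagonal]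
    exact prod_pos fun _ _ => by positivity
  have ps : ((n : ℝ) • Q).PosSemidef := (posSemidef_sum univ fun i _ =>
    (show (vecMulVec (p i) (p i)).PosSemidef from posSemidef_vecMulVec_self_star (p i)).smul (w0 i)).smul nR.le
  obtain ⟨B, hB⟩ := CStarAlgebra.nonneg_iff_eq_star_mul_self.mp ps.nonneg
  have hB' : (n : ℝ) • Q = Bᵀ * B := hB
  have dB : B.det * B.det = n ^ n * Q.det := by
    have := congrArg det hB'
    rw [det_smul, det_mul, det_transpose, Fintype.card_fin] at this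
    exact this.symm
  have dB0 : 0 < B.det * B.det := by rw [dB]; positivity
  have u : IsUnit B.det := isUnit_iff_ne_zero.2 fun h => by simp [h] at dB0
  have i1 : B⁻¹ * B = 1 := nonsing_inv_mul B u
  have i2 : B * B⁻¹ = 1 := mul_nonsing_inv B u
  have dp : ∀ q v : Fin n → ℝ, (q ᵥ* B⁻¹) ⬝ᵥ (B *ᵥ v) = q ⬝ᵥ v := fun q v => by
    rw [← dotProduct_mulVec, mulVec_mulVec, i1, one_mulVec]
  have vv : ∀ q : Fin n → ℝ, vecMulVec q q = Bᵀ * vecMulVec (q ᵥ* B⁻¹) (q ᵥ* B⁻¹) * B := fun q => by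
    rw [mul_vecMulVec, vecMulVec_mul, mulVec_transpose, vecMul_vecMul, i1, vecMul_one]
  have key : ∀ q ∈ K, (q ᵥ* B⁻¹) ⬝ᵥ (q ᵥ* B⁻¹) ≤ 1 := fun q hq => by
    refine J2.small n0 (dotProduct_self_star_nonneg _) fun t t0 t1 => ?_
    have t2 : 0 < 1 - t := by linarith
    have a := hm _ ((convex_convexHull ℝ _) QH (subset_convexHull ℝ _ ⟨q, hq, rfl⟩) t2.le t0.le (by ring))
    have b : (n : ℝ) • ((1 - t) • Q + t • vecMulVec q q) = Bᵀ * ((1 - t) • (1 +
        vecMulVec ((t * n / (1 - t)) • (q ᵥ* B⁻¹)) (q ᵥ* B⁻¹))) * B := by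
      rw [smul_add, smul_comm, hB', vv q, smul_vecMulVec]
      simp only [Matrix.mul_smul, Matrix.smul_mul, Matrix.mul_add, Matrix.add_mul, Matrix.mul_one,
        smul_add, smul_smul]
      congr 2
      field_simp
    have c := congrArg det b
    rw [det_smul, det_mul, det_mul, det_transpose, det_smul, vecMulVec_eq Unit (_ • _),
      det_one_add_replicateCol_mul_replicateRow, Fintype.card_fin, dotProduct_smul, smul_eq_mul] at c
    have d := mul_le_mul_of_nonneg_left a (pow_nonneg nR.le n)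
    rw [← dB] at d
    rw [c] at d
    rw [← div_mul_eq_mul_div]
    nlinarith
  let L : X ≃L[ℝ] EuclideanSpace ℝ (Fin n) := (e.trans
    (Matrix.toLin'OfInv (M := B) (M' := B⁻¹) i2 i1).symm.toContinuousLinearEquiv).trans
      (EuclideanSpace.equiv (Fin n) ℝ).symm
  have hL : ∀ x, L x = WithLp.toLp 2 (B *ᵥ e x) := fun x => rfl
  have ip : ∀ a b : Fin n → ℝ, ⟪(WithLp.toLp 2 a : EuclideanSpace ℝ (Fin n)), WithLp.toLp 2 b⟫ = a ⬝ᵥ b :=
    fun a b => by rw [EuclideanSpace.inner_toLp_toLp, dotProduct_comm]; rfl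
  refine ⟨L, m, fun i => n * w i, fun i => WithLp.toLp 2 (p i ᵥ* B⁻¹), fun i => by
    have := w0 i
    positivity, by rw [← mul_sum, w1, mul_one], fun i x => by rw [hL, ip, dp]; exact pK i x,
    fun x => ?_, fun v => ?_⟩
  · obtain ⟨φ, p1, p2⟩ := exists_dual_vector'' ℝ x
    let q : Fin n → ℝ := fun i => φ (e.symm (Pi.single i 1))
    have hq : ∀ y, q ⬝ᵥ e y = φ y := fun y => by
      conv_rhs => rw [← e.symm_apply_apply y, pi_eq_sum_univ' (e y)]
      simp [q, dotProduct, mul_comm]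
    have qK : q ∈ K := fun y => by
      rw [hq]
      exact (le_abs_self _).trans ((φ.le_opNorm y).trans (mul_le_of_le_one_left (norm_nonneg _) p1))
    have a := real_inner_le_norm (WithLp.toLp 2 (q ᵥ* B⁻¹) : EuclideanSpace ℝ (Fin n)) (L x)
    have b : ‖(WithLp.toLp 2 (q ᵥ* B⁻¹) : EuclideanSpace ℝ (Fin n))‖ ≤ 1 := by
      refine (pow_le_one_iff_of_nonneg (norm_nonneg _) two_ne_zero).1 ?_
      rw [← real_inner_self_eq_norm_sq, ip]
      exact key q qK
    conv_lhs at a => rw [hL, ip, dp, hq, p2]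
    exact a.trans (mul_le_of_le_one_left (norm_nonneg _) b)
  · have s : ∑ i, (n * w i) • vecMulVec (p i ᵥ* B⁻¹) (p i ᵥ* B⁻¹) = 1 := by
      have a : Bᵀ * (∑ i, (n * w i) • vecMulVec (p i ᵥ* B⁻¹) (p i ᵥ* B⁻¹)) * B = Bᵀ * 1 * B := by
        rw [Matrix.mul_one, ← hB', hQ, smul_sum, mul_sum, sum_mul]
        exact sum_congr rfl fun i _ => by rw [Matrix.mul_smul, Matrix.smul_mul, ← vv, smul_smul]
      have b := congrArg (fun R => B⁻¹ᵀ * R * B⁻¹) a
      simp only [← Matrix.mul_assoc, ← transpose_mul, i2, transpose_one, Matrix.one_mul] at b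
      simpa only [Matrix.mul_assoc, i2, Matrix.mul_one] using b
    have t := congrArg (fun R => R *ᵥ v.ofLp) s
    simp only [one_mulVec, sum_mulVec, smul_mulVec, vecMulVec_mulVec] at t
    ext j
    have := congrFun t j
    simp only [Finset.sum_apply, Pi.smul_apply, smul_eq_mul, op_smul_eq_smul] at this
    rw [← this]
    simp only [WithLp.ofLp_sum, WithLp.ofLp_smul, Finset.sum_apply, Pi.smul_apply, smul_eq_mul]
    refine sum_congr rfl fun i _ => ?_
    rw [← WithLp.toLp_ofLp 2 v, ip]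
    ring

end Vale.Agent.P084
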