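import Mathlib

/-! From an almost everywhere derivative bound to a Lipschitz bound. Plan: a b in U, v = b - a,
phi t = integral over z in ball 0 e of G (a + t v + z) has derivative of norm at most vol * |v| at every t
in [0,1] (differentiation under the integral, translation invariance), mean value theorem, e to 0. -/

namespace Vale.Agent.P084

open MeasureTheory Metric

theorem lip_one_aux {n : ℕ} {G : EuclideanSpace ℝ (Fin n) → EuclideanSpace ℝ (Fin n)} {C : NNReal}
    (hG : LipschitzWith C G) {U : Set (EuclideanSpace ℝ (Fin n))} (hc : Convex ℝ U)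
    (h : ∀ᵐ x, x ∈ U → ‖fderiv ℝ G x‖ ≤ 1) (a b : EuclideanSpace ℝ (Fin n)) (e : ℝ) (he : 0 < e)
    (ha : ball a e ⊆ U) (hb : ball b e ⊆ U) : ‖G b - G a‖ ≤ ‖b - a‖ + 2 * C * e := by
  set v := b - a with hv
  set μ : Measure (EuclideanSpace ℝ (Fin n)) := volume.restrict (ball 0 e) with hμ
  haveI : IsFiniteMeasure μ := ⟨by
    rw [hμ, Measure.restrict_apply_univ]; exact measure_ball_lt_top⟩
  have hpos : 0 < μ.real Set.univ := by
    rw [hμ, measureReal_restrict_apply_univ]
    exact ENNReal.toReal_pos (measure_ball_pos volume _ he).ne' measure_ball_lt_top.ne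
  have hcont : ∀ c : EuclideanSpace ℝ (Fin n), Continuous fun z => G (c + z) := fun c =>
    hG.continuous.comp (continuous_const.add continuous_id)
  have hint : ∀ c : EuclideanSpace ℝ (Fin n), Integrable (fun z => G (c + z)) μ := fun c =>
    ((hcont c).continuousOn.integrableOn_compact (isCompact_closedBall 0 e)).mono_set
      ball_subset_closedBall
  have hmem : ∀ t ∈ Set.Icc (0 : ℝ) 1, ∀ z ∈ ball (0 : EuclideanSpace ℝ (Fin n)) e,
      a + t • v + z ∈ U := by
    intro t ht z hz
    have h1 : a + z ∈ U := ha (by simpa [dist_eq_norm] using hz)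
    have h2 : b + z ∈ U := hb (by simpa [dist_eq_norm] using hz)
    have h3 := hc h1 h2 (sub_nonneg.2 ht.2) ht.1 (by ring)
    have h4 : (1 - t) • (a + z) + t • (b + z) = a + t • v + z := by
      rw [hv]; module
    rwa [h4] at h3
  have hder : ∀ t : ℝ, HasDerivAt (fun s : ℝ => ∫ z, G (a + s • v + z) ∂μ)
      (∫ z, fderiv ℝ G (a + t • v + z) v ∂μ) t := by
    intro t
    refine (hasDerivAt_integral_of_dominated_loc_of_lip (μ := μ)
      (F := fun (s : ℝ) z => G (a + s • v + z))
      (F' := fun z => fderiv ℝ G (a + t • v + z) v) (bound := fun _ => (C : ℝ) * ‖v‖)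
      (s := Set.univ) Filter.univ_mem ?_ (hint _) ?_ ?_ (integrable_const _) ?_).2
    · exact Filter.Eventually.of_forall fun s => (hcont _).aestronglyMeasurable
    · exact ((measurable_fderiv_apply_const ℝ G v).comp
        (measurable_const.add measurable_id)).aestronglyMeasurable
    · refine Filter.Eventually.of_forall fun z => ?_
      refine LipschitzOnWith.of_dist_le_mul fun s _ s' _ => ?_
      have h1 := hG.dist_le_mul (a + s • v + z) (a + s' • v + z)
      have h2 : dist (a + s • v + z) (a + s' • v + z) = ‖v‖ * dist s s' := by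
        rw [dist_eq_norm, dist_eq_norm]
        have : a + s • v + z - (a + s' • v + z) = (s - s') • v := by module
        rw [this, norm_smul, mul_comm]
      rw [h2] at h1
      have h3 : ((Real.nnabs ((C : ℝ) * ‖v‖) : NNReal) : ℝ) = C * ‖v‖ := by
        rw [Real.coe_nnabs, abs_of_nonneg (by positivity)]
      rw [h3, mul_assoc]
      exact h1
    · have h1 : ∀ᵐ z : EuclideanSpace ℝ (Fin n), DifferentiableAt ℝ G (a + t • v + z) :=
        (measurePreserving_add_left volume (a + t • v)).quasiMeasurePreserving.ae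
          hG.ae_differentiableAt
      refine (ae_restrict_of_ae h1).mono fun z hz => ?_
      have h2 : HasDerivAt (fun s : ℝ => a + s • v + z) v t := by
        simpa using (((hasDerivAt_id t).smul_const v).const_add a).add_const z
      exact hz.hasFDerivAt.comp_hasDerivAt t h2
  have hbound : ∀ t ∈ Set.Ico (0 : ℝ) 1,
      ‖∫ z, fderiv ℝ G (a + t • v + z) v ∂μ‖ ≤ ‖v‖ * μ.real Set.univ := by
    intro t ht
    apply norm_integral_le_of_norm_le_const
    have h1 : ∀ᵐ z : EuclideanSpace ℝ (Fin n),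
        a + t • v + z ∈ U → ‖fderiv ℝ G (a + t • v + z)‖ ≤ 1 :=
      (measurePreserving_add_left volume (a + t • v)).quasiMeasurePreserving.ae h
    filter_upwards [ae_restrict_of_ae h1, ae_restrict_mem measurableSet_ball] with z hz hz2
    have h2 := hz (hmem t ⟨ht.1, ht.2.le⟩ z hz2)
    calc _ ≤ ‖fderiv ℝ G (a + t • v + z)‖ * ‖v‖ := ContinuousLinearMap.le_opNorm _ _
      _ ≤ 1 * ‖v‖ := by gcongr
      _ = ‖v‖ := one_mul _
  have hmv := norm_image_sub_le_of_norm_deriv_le_segment_01'
    (fun t _ => (hder t).hasDerivWithinAt) hbound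
  have e1 : a + (1 : ℝ) • v = b := by rw [hv]; module
  have e0 : a + (0 : ℝ) • v = a := by module
  simp only [e1, e0] at hmv
  have herr : ∀ c : EuclideanSpace ℝ (Fin n),
      ‖μ.real Set.univ • G c - ∫ z, G (c + z) ∂μ‖ ≤ (C * e) * μ.real Set.univ := by
    intro c
    rw [← integral_const, ← integral_sub (integrable_const _) (hint c)]
    apply norm_integral_le_of_norm_le_const
    filter_upwards [ae_restrict_mem measurableSet_ball] with z hz
    have h1 := hG.dist_le_mul c (c + z)
    rw [dist_eq_norm, dist_self_add_right] at h1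
    have h2 : ‖z‖ ≤ e := (mem_ball_zero_iff.1 hz).le
    exact h1.trans (by gcongr)
  have hfin : μ.real Set.univ * ‖G b - G a‖ ≤ μ.real Set.univ * (‖v‖ + 2 * C * e) := by
    have h1 : μ.real Set.univ • (G b - G a) =
        (μ.real Set.univ • G b - ∫ z, G (b + z) ∂μ) - (μ.real Set.univ • G a - ∫ z, G (a + z) ∂μ)
          + ((∫ z, G (b + z) ∂μ) - ∫ z, G (a + z) ∂μ) := by
      rw [smul_sub]; abel
    have h2 : ‖μ.real Set.univ • (G b - G a)‖ = μ.real Set.univ * ‖G b - G a‖ := by
      rw [norm_smul, Real.norm_of_nonneg hpos.le]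
    rw [← h2, h1]
    have h3 := norm_add_le ((μ.real Set.univ • G b - ∫ z, G (b + z) ∂μ) -
      (μ.real Set.univ • G a - ∫ z, G (a + z) ∂μ)) ((∫ z, G (b + z) ∂μ) - ∫ z, G (a + z) ∂μ)
    have h4 := norm_sub_le (μ.real Set.univ • G b - ∫ z, G (b + z) ∂μ)
      (μ.real Set.univ • G a - ∫ z, G (a + z) ∂μ)
    have h5 := herr a
    have h6 := herr b
    nlinarith
  exact le_of_mul_le_mul_left hfin hpos

theorem lip_one {n : ℕ} {G : EuclideanSpace ℝ (Fin n) → EuclideanSpace ℝ (Fin n)} {C : NNReal}
    (hG : LipschitzWith C G) {U : Set (EuclideanSpace ℝ (Fin n))} (hU : IsOpen U) (hc : Convex ℝ U)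
    (h : ∀ᵐ x, x ∈ U → ‖fderiv ℝ G x‖ ≤ 1) : ∀ a ∈ U, ∀ b ∈ U, ‖G b - G a‖ ≤ ‖b - a‖ := by
  intro a ha b hb
  obtain ⟨r, hr, hra⟩ := Metric.isOpen_iff.1 hU a ha
  obtain ⟨s, hs, hsb⟩ := Metric.isOpen_iff.1 hU b hb
  apply le_of_forall_pos_le_add
  intro d hd
  have hC : (0 : ℝ) ≤ C := C.2
  set e := min (min r s) (d / (2 * C + 1)) with he
  have he0 : 0 < e := lt_min (lt_min hr hs) (by positivity)
  have h1 : e ≤ r := (min_le_left _ _).trans (min_le_left _ _)
  have h2 : e ≤ s := (min_le_left _ _).trans (min_le_right _ _)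
  have h3 : e ≤ d / (2 * C + 1) := min_le_right _ _
  have h4 : e * (2 * C + 1) ≤ d := (le_div_iff₀ (by positivity)).1 h3
  have h5 := lip_one_aux hG hc h a b e he0 ((ball_subset_ball h1).trans hra)
    ((ball_subset_ball h2).trans hsb)
  nlinarith

end Vale.Agent.P084
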