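import Vale.Agent.P084.Area

/-! AM-GM for singular values. Plan: eigenvalues l_i >= 0 of A^T A, sum <= n, product = det^2,
l <= exp (l - 1) with equality only at 1. -/

namespace Vale.Agent.P084

theorem amgm {n : ℕ} (A : EuclideanSpace ℝ (Fin n) →L[ℝ] EuclideanSpace ℝ (Fin n))
    (h : ∑ j, ‖A (EuclideanSpace.single j 1)‖ ^ 2 ≤ n) :
    |A.det| ≤ 1 ∧ (|A.det| = 1 → ‖A‖ ≤ 1) :=
  ⟨(det_hs A h).1, fun e => (det_hs A h).2 e.ge⟩

end Vale.Agent.P084
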